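import Vale.Agent.P254.SP.H151.ColIface

/-!
P254, block SP (helper38): the pointwise forms of the column certificate.

`FormA`, `FormB` are the two pointwise quadratic forms of 412 / 979 / 20 (c times the column term), at
the spectral value `g`; `PW P q ν b₁ ρ w bw i₀ m`: the numbers `m` certify the column `q`.
-/

set_option autoImplicit false

open MeasureTheory

namespace Vale.Agent.P254.SP38

open Vale.Agent.P227.M Vale.Agent.P254.S Vale.Agent.P254.SP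

/-- `w = r' + r r''` -/
noncomputable def w0 (P : F1) (g : ℝ) : ℝ := P.r' g + P.r g * P.r'' g

/-- `θ = r (1 + r')` -/
noncomputable def th (P : F1) (g : ℝ) : ℝ := P.r g + P.r g * P.r' g

/-- `θ' = r' + r'² + r r''` -/
noncomputable def th1 (P : F1) (g : ℝ) : ℝ := P.r' g + (P.r' g ^ 2 + P.r g * P.r'' g)

/-- the multipliers of one column (`γ i` may depend on the spectral value `g`) -/
structure Mult (N : ℕ) where
  (c σ L1 L2 L3 L4 L5 L6 L7 T0 Mt Mr B4 : ℝ)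
  (γ : Fin N → ℝ → ℝ)

/-- the form in `(f, α, k₁)` -/
noncomputable def FormA (P : F1) {N : ℕ} (ν b₁ : ℝ) (m : Mult N) (g f al k1 : ℝ) : ℝ :=
  (m.c - (1 + 1 / m.σ) / 16) * f ^ 2 - (m.c - 1) * (P.r' g * f + k1) ^ 2
    - (1 + m.σ) * (P.r' g * f + k1 - 1 / 4 * f) ^ 2 - (m.c - 1) * (P.r' g ^ 2 * al * f)
    + m.L5 * al ^ 2 + m.L7 * (al * f) + m.B4 * (P.r' g ^ 2 * al ^ 2 + P.r' g ^ 2 * al * f)
    - m.L6 * f ^ 2 - m.c * ν * f ^ 2 + m.c * b₁ * k1 ^ 2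

/-- the form in `(x, y, ζ, κ)` -/
noncomputable def FormB (P : F1) {N : ℕ} (q ν ρ : ℝ) (bw : Fin N → ℝ) (i₀ : Fin N) (m : Mult N)
    (g x y ze : ℝ) (ka : Fin N → ℝ) : ℝ :=
  -((m.c - (1 + 1 / m.σ) / 16) * y ^ 2)
    - (P.r' g * y + (q - 1) * P.r'' g * x + P.r'' g * ze + ka i₀ - 1 / 4 * y) ^ 2
    + (m.c - 1) * ((q - 1) * (w0 P g * x ^ 2) + w0 P g * x * ze + th P g * x * y)
    - (m.c * Real.log m.c - m.c + 1) * x ^ 2
    + m.L1 * (x * y) + m.L2 * (g * x * y - y ^ 2) + m.L3 * (x * ze) + m.L4 * (g * x ^ 2)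
    - m.L5 * q * x ^ 2
    + m.T0 * (g * g * x ^ 2 - g * x * y - 1 * x * (q * x + ze))
    + m.Mt * (th P g * g * x ^ 2 - th P g * x * y - th1 P g * x * (q * x + ze))
    + m.Mr * (P.r g * g * x ^ 2 - P.r g * x * y - P.r' g * x * (q * x + ze))
    - m.B4 * (P.r' g ^ 2 * x * (q * x + ze))
    + 2 * m.L6 * y ^ 2 + x * ∑ i, m.γ i g * ka i
    + m.c * ν * q⁻¹ * ze ^ 2 + ∑ i, m.c * bw i * q⁻¹ * ka i ^ 2
    - m.c * ρ * (y ^ 2 + min 1 ((q - 1) ^ 2) * x ^ 2)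

/-- the numbers `m` certify the column `q` -/
structure PW (P : F1) (q ν b₁ ρ : ℝ) {N : ℕ} (w : Fin N → ℝ → ℝ → ℝ) (bw : Fin N → ℝ)
    (i₀ : Fin N) (m : Mult N) : Prop where
  c_pos : 0 < m.c
  σ_pos : 0 < m.σ
  L6_nonneg : 0 ≤ m.L6
  ker : ∀ x y, (m.c - 1) * SP151.ck P x y - m.Mt * (dd (th P) (th1 P) x y - th1 P x)
      - m.Mr * (dd P.r P.r' x y - P.r' x) - m.B4 * (P.r' y ^ 2 - P.r' x ^ 2)
      = ∑ i, m.γ i x * w i x y
  formA : ∀ g f al k1, 0 ≤ FormA P ν b₁ m g f al k1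
  formB : ∀ g x y ze (ka : Fin N → ℝ), (q = 0 → ze = 0 ∧ ∀ i, ka i = 0) →
    0 ≤ FormB P q ν ρ bw i₀ m g x y ze ka

end Vale.Agent.P254.SP38
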