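import Vale.Agent.P254.SP.H38.Forms
import Vale.Agent.P254.SP.H151.ColIface2
import Vale.Agent.P254.SP.H127.FC
import Vale.Agent.P254.SP.H545.StUps
import Vale.Agent.P254.SP.H649.Gap
import Vale.Agent.P254.SP.H888.C4

/-!
P254, block SP (helper38): from the pointwise forms to the column inequality `StmtCol` of helper151.
-/

set_option autoImplicit false

open MeasureTheory Matrix

namespace Vale.Agent.P254.SP38

open Vale.Agent.P227.M Vale.Agent.P254.S Vale.Agent.P254.SP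
open Vale.Agent.P254.SP151 (kk kA ck nDF nF nZ cT StmtCol)
open Vale.Agent.P254.SP127 (MP FC)

variable {n : ℕ}

/-! ### functions with known expectation -/

/-- measurable of polynomial growth, with known expectation -/
def HE (f : E n → ℝ) (v : ℝ) : Prop := MP f ∧ Ex Q f = v

section HE

variable {f g : E n → ℝ} {v w : ℝ}

theorem HE.of (h : MP f) : HE f (Ex Q f) := ⟨h, rfl⟩

theorem HE.of_eq (h : MP f) (e : Ex Q f = v) : HE f v := ⟨h, e⟩

theorem HE.add (hf : HE f v) (hg : HE g w) : HE (fun z => f z + g z) (v + w) :=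
  ⟨hf.1.add hg.1, by rw [SP127.Ex_add' hf.1 hg.1, hf.2, hg.2]⟩

theorem HE.sub (hf : HE f v) (hg : HE g w) : HE (fun z => f z - g z) (v - w) :=
  ⟨hf.1.sub hg.1, by rw [SP127.Ex_sub' hf.1 hg.1, hf.2, hg.2]⟩

theorem HE.smul (c : ℝ) (hf : HE f v) : HE (fun z => c * f z) (c * v) :=
  ⟨hf.1.smul c, by rw [SP127.Ex_smul', hf.2]⟩

theorem HE.neg (hf : HE f v) : HE (fun z => -(f z)) (-v) := by
  have h := hf.smul (-1)
  have e : (fun z => -(f z)) = fun z => -1 * f z := by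
    funext z
    ring
  rw [e, show -v = -1 * v by ring]
  exact h

theorem HE.congr (hf : HE f v) (h : ∀ z, g z = f z) : HE g v := by
  have e : g = f := funext h
  rw [e]
  exact hf

theorem HE.nonneg (hf : HE f v) (h : ∀ z, 0 ≤ f z) : 0 ≤ v := by
  rw [← hf.2]
  exact SP127.Ex_nonneg' h

theorem HE.sum {ι : Type*} (t : Finset ι) {f : ι → E n → ℝ} {v : ι → ℝ}
    (h : ∀ k ∈ t, HE (f k) (v k)) : HE (fun z => ∑ k ∈ t, f k z) (∑ k ∈ t, v k) := by
  refine ⟨MP.sum t fun k hk => (h k hk).1, ?_⟩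
  rw [SP127.Ex_sum' t fun k hk => (h k hk).1]
  exact Finset.sum_congr rfl fun k hk => (h k hk).2

theorem HE.val (hf : HE f v) : Ex Q f = v := hf.2

theorem HE.uniq (hf : HE f v) (hg : HE f w) : v = w := hf.2.symm.trans hg.2

end HE

/-! ### finite algebra -/

theorem A_alg (S : Fin n → ℝ) (F AL K1 : Fin n → Fin n → ℝ) (P0 c1 s1 L5 L7 B4 L6 cν cb : ℝ) :
    ∑ k, ∑ i, (P0 * F k i ^ 2 - c1 * (S i * F k i + K1 k i) ^ 2
      - s1 * (S i * F k i + K1 k i - 1 / 4 * F k i) ^ 2 - c1 * (S i ^ 2 * AL k i * F k i)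
      + L5 * AL k i ^ 2 + L7 * (AL k i * F k i)
      + B4 * (S i ^ 2 * AL k i ^ 2 + S i ^ 2 * AL k i * F k i)
      - L6 * F k i ^ 2 - cν * F k i ^ 2 + cb * K1 k i ^ 2)
    = P0 * (∑ k, ∑ i, F k i ^ 2) - c1 * (∑ k, ∑ i, (S i * F k i + K1 k i) ^ 2)
      - s1 * (∑ k, ∑ i, (S i * F k i + K1 k i - 1 / 4 * F k i) ^ 2)
      - c1 * (∑ k, ∑ i, S i ^ 2 * AL k i * F k i)
      + L5 * (∑ k, ∑ i, AL k i ^ 2) + L7 * (∑ k, ∑ i, AL k i * F k i)
      + B4 * ((∑ k, ∑ i, S i ^ 2 * AL k i ^ 2) + ∑ k, ∑ i, S i ^ 2 * AL k i * F k i)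
      - L6 * (∑ k, ∑ i, F k i ^ 2) - cν * (∑ k, ∑ i, F k i ^ 2)
      + cb * (∑ k, ∑ i, K1 k i ^ 2) := by
  simp only [Finset.sum_add_distrib, Finset.sum_sub_distrib, ← Finset.mul_sum]

theorem B_alg (X Y Z K0 KS KQ G S R2 W TH TH1 R : Fin n → ℝ)
    (P0 q c1 K L1 L2 L3 L4 L5 T0 Mt Mr B4 L6 cz cr mn : ℝ) :
    ∑ i, (-(P0 * Y i ^ 2)
      - (S i * Y i + (q - 1) * R2 i * X i + R2 i * Z i + K0 i - 1 / 4 * Y i) ^ 2
      + c1 * ((q - 1) * (W i * X i ^ 2) + W i * X i * Z i + TH i * X i * Y i)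
      - K * X i ^ 2
      + L1 * (X i * Y i) + L2 * (G i * X i * Y i - Y i ^ 2) + L3 * (X i * Z i) + L4 * (G i * X i ^ 2)
      - L5 * q * X i ^ 2
      + T0 * (G i * G i * X i ^ 2 - G i * X i * Y i - 1 * X i * (q * X i + Z i))
      + Mt * (TH i * G i * X i ^ 2 - TH i * X i * Y i - TH1 i * X i * (q * X i + Z i))
      + Mr * (R i * G i * X i ^ 2 - R i * X i * Y i - S i * X i * (q * X i + Z i))
      - B4 * (S i ^ 2 * X i * (q * X i + Z i))
      + 2 * L6 * Y i ^ 2 + X i * KS i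
      + cz * Z i ^ 2 + KQ i
      - cr * (Y i ^ 2 + mn * X i ^ 2))
    = -(P0 * ∑ i, Y i ^ 2)
      - (∑ i, (S i * Y i + (q - 1) * R2 i * X i + R2 i * Z i + K0 i - 1 / 4 * Y i) ^ 2)
      + c1 * ((q - 1) * (∑ i, W i * X i ^ 2) + (∑ i, W i * X i * Z i) + ∑ i, TH i * X i * Y i)
      - K * (∑ i, X i ^ 2)
      + L1 * (∑ i, X i * Y i) + L2 * ((∑ i, G i * X i * Y i) - ∑ i, Y i ^ 2)
      + L3 * (∑ i, X i * Z i) + L4 * (∑ i, G i * X i ^ 2)
      - L5 * q * (∑ i, X i ^ 2)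
      + T0 * ((∑ i, G i * G i * X i ^ 2) - (∑ i, G i * X i * Y i) - ∑ i, 1 * X i * (q * X i + Z i))
      + Mt * ((∑ i, TH i * G i * X i ^ 2) - (∑ i, TH i * X i * Y i)
        - ∑ i, TH1 i * X i * (q * X i + Z i))
      + Mr * ((∑ i, R i * G i * X i ^ 2) - (∑ i, R i * X i * Y i)
        - ∑ i, S i * X i * (q * X i + Z i))
      - B4 * (∑ i, S i ^ 2 * X i * (q * X i + Z i))
      + 2 * L6 * (∑ i, Y i ^ 2) + (∑ i, X i * KS i)
      + cz * (∑ i, Z i ^ 2) + (∑ i, KQ i)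
      - cr * ((∑ i, Y i ^ 2) + mn * ∑ i, X i ^ 2) := by
  simp only [Finset.sum_add_distrib, Finset.sum_sub_distrib, Finset.sum_neg_distrib,
    ← Finset.mul_sum]

/-! ### the kernels -/

variable {U : E n → Matrix (Fin n) (Fin n) ℝ} {s : E n → Fin n → ℝ}

theorem kA_lin {N : ℕ} (γ : Fin N → ℝ → ℝ) (w : Fin N → ℝ → ℝ → ℝ) (W : ℝ → ℝ → ℝ)
    (h : ∀ x y, W x y = ∑ m, γ m x * w m x y) (e : Fin n → ℝ) (z : E n) (i : Fin n) :
    kA W U s e z i = ∑ m, γ m (s z i) * kA (w m) U s e z i := by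
  have e1 : ∀ m, γ m (s z i) * kA (w m) U s e z i
      = ∑ k, ∑ j, (γ m (s z i) * w m (s z i) (s z j)) * uu U s k z i j
          * xx U ((AA U s k).mulVec e) z j := by
    intro m
    simp only [kA, kk, Finset.mul_sum]
    exact Finset.sum_congr rfl fun k _ => Finset.sum_congr rfl fun j _ => by ring
  simp only [e1]
  rw [Finset.sum_comm]
  unfold kA kk
  refine Finset.sum_congr rfl fun k _ => ?_
  rw [Finset.sum_comm]
  refine Finset.sum_congr rfl fun j _ => ?_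
  rw [h, ← Finset.sum_mul, ← Finset.sum_mul]

theorem kA_four (a b c d : ℝ) (w1 w2 w3 w4 : ℝ → ℝ → ℝ) (e : Fin n → ℝ) (z : E n) (i : Fin n) :
    kA (fun x y => a * w1 x y - b * w2 x y - c * w3 x y - d * w4 x y) U s e z i
      = a * kA w1 U s e z i - b * kA w2 U s e z i - c * kA w3 U s e z i
        - d * kA w4 U s e z i := by
  simp only [kA, kk, Finset.mul_sum, ← Finset.sum_sub_distrib]
  exact Finset.sum_congr rfl fun k _ => Finset.sum_congr rfl fun j _ => by ring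

theorem fc_kA {P : F1} {φ V : E n → ℝ} {a b M κ : ℝ} (h : BP φ V a b M κ) (hF : Fr P φ U s)
    {w : ℝ → ℝ → ℝ} (hw : Continuous fun p : ℝ × ℝ => w p.1 p.2) (e : Fin n → ℝ) :
    FC U (kA w U s e) :=
  FC.sum (U := U) Finset.univ (c := fun k : Fin n => kk w U s k ((AA U s k).mulVec e))
    fun k _ => FC.uu h hF hw k (FC.xx _)

/-- the double sum with a commutator kernel -/
theorem sum_kap (p p' : ℝ → ℝ) (e : Fin n → ℝ) (z : E n) :
    ∑ k, ∑ i, xx U e z i * kap p p' U s k ((AA U s k).mulVec e) z i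
      = ∑ i, xx U e z i * kA (fun x y => dd p p' x y - p' x) U s e z i := by
  rw [Finset.sum_comm]
  refine Finset.sum_congr rfl fun i _ => ?_
  unfold kA
  rw [Finset.mul_sum]
  rfl

theorem sum_c4 (p : ℝ → ℝ) (e : Fin n → ℝ) (z : E n) :
    ∑ k, ∑ i, xx U e z i * ∑ j, (p (s z j) - p (s z i)) * uu U s k z i j
          * xx U ((AA U s k).mulVec e) z j
      = ∑ i, xx U e z i * kA (fun x y => p y - p x) U s e z i := by
  rw [Finset.sum_comm]
  refine Finset.sum_congr rfl fun i _ => ?_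
  unfold kA
  rw [Finset.mul_sum]
  rfl

/-! ### one-variable functions -/

theorem hasDeriv_th (P : F1) (x : ℝ) : HasDerivAt (th P) (th1 P x) x := by
  have h := (P.hr x).add ((P.hr x).mul (P.hr' x))
  have e : th1 P x = P.r' x + (P.r' x * P.r' x + P.r x * P.r'' x) := by
    unfold th1
    ring
  rw [e]
  exact h

theorem r'_cont (P : F1) : Continuous P.r' :=
  continuous_iff_continuousAt.2 fun x => (P.hr' x).continuousAt

theorem r_cont (P : F1) : Continuous P.r :=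
  continuous_iff_continuousAt.2 fun x => (P.hr x).continuousAt

theorem th_cont (P : F1) : Continuous (th P) :=
  continuous_iff_continuousAt.2 fun x => (hasDeriv_th P x).continuousAt

theorem th1_cont (P : F1) : Continuous (th1 P) := by
  have h1 := r'_cont P
  have h2 := r_cont P
  have h3 := P.r''_cont
  unfold th1
  fun_prop

theorem w0_cont (P : F1) : Continuous (w0 P) := by
  have h1 := r'_cont P
  have h2 := r_cont P
  have h3 := P.r''_cont
  unfold w0
  fun_prop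

theorem AA_symm (c : Fin n) : (AA U s c).IsSymm := by
  ext i j
  show AA U s c j i = AA U s c i j
  unfold AA
  congr 1
  funext z
  exact congrFun (congrFun (SP127.pdM_GG_symm U s c z) i) j

theorem kap_id (U : E n → Matrix (Fin n) (Fin n) ℝ) (s : E n → Fin n → ℝ) (k : Fin n)
    (v : Fin n → ℝ) (z : E n) (i : Fin n) : kap (fun x => x) (fun _ => 1) U s k v z i = 0 := by
  unfold kap
  refine Finset.sum_eq_zero fun j _ => ?_
  have e : dd (fun x : ℝ => x) (fun _ => 1) (s z i) (s z j) = 1 := by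
    unfold dd
    split_ifs with h
    · rfl
    · exact div_self (sub_ne_zero.2 h)
  rw [e]
  ring

/-- **the column inequality from the pointwise forms** -/
theorem mode1_of (hLin : SP.StmtLin) {P : F1} {ν b₁ ρ : ℝ} {N : ℕ} {w : Fin N → ℝ → ℝ → ℝ}
    {bw : Fin N → ℝ} {i₀ : Fin N} (hw : ∀ m, Continuous fun p : ℝ × ℝ => w m p.1 p.2)
    (hw0 : ∀ x y, w i₀ x y = dd P.r' P.r'' x y - P.r'' x)
    {φ V : E n → ℝ} {a b M κ : ℝ} {U : E n → Matrix (Fin n) (Fin n) ℝ} {s : E n → Fin n → ℝ}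
    (hD : Dat P φ V a b M κ U s) (h0 : ∀ i j, Ex Q (fun z => GG U s z i j) = 0)
    {e : Fin n → ℝ} {q : ℝ} (hq : (KK U s).mulVec e = q • e) (he : ∑ i, e i ^ 2 = 1)
    {m : Mult N} (hm : PW P q ν b₁ ρ w bw i₀ m) :
    SP151.Mode1 P ν b₁ w bw ρ U s q e := by
  refine ⟨m.c, m.σ, hm.c_pos, hm.σ_pos, ?_⟩
  have h := hD.bp
  have hF := hD.fr
  have ho := hF.orth
  obtain ⟨l1, l2, l3, l4, l5, l6⟩ := hLin P n φ V a b M κ U s hD h0 e q hq
  have hGap := (SP649.stmtGap P n φ V a b M κ U s hD h0 e).1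
  -- the columns
  have hX : FC U (xx U e) := FC.xx e
  have hY : FC U (col U (FF U s) e) := FC.y h hF e
  have hZ : FC U (col U (ZZ U s) e) := FC.ze h hF e
  have hFa : ∀ k, FC U (col U (Fa U s k) e) := fun k => FC.fa h hF k e
  have hAL : ∀ k, FC U (xx U ((AA U s k).mulVec e)) := fun k => FC.xx _
  have hK1 : ∀ k, FC U (kap P.r P.r' U s k e) := fun k => FC.kap h hF P.hr (r'_cont P) k e
  have hbe : ∀ k, FC U (be P U s e k) := fun k => FC.be h hF e k
  have hae : FC U (SP.ae P U s q e) := FC.ae h hF q e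
  have hQZ : FC U (fun z i => q * xx U e z i + col U (ZZ U s) e z i) := (hX.smul q).add hZ
  have xsum : ∀ z, ∑ i, xx U e z i ^ 2 = 1 := by
    intro z
    have h1 : ((U z).transpose *ᵥ e) ⬝ᵥ ((U z).transpose *ᵥ e) = e ⬝ᵥ e := by
      rw [Matrix.dotProduct_mulVec, Matrix.vecMul_transpose, Matrix.mulVec_mulVec, ho z,
        Matrix.one_mulVec]
    have h2 : ∑ i, xx U e z i ^ 2 = ((U z).transpose *ᵥ e) ⬝ᵥ ((U z).transpose *ᵥ e) := by
      simp only [dotProduct, sq]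
      rfl
    rw [h2, h1, ← he]
    simp only [dotProduct, sq]
  have lsum : ∀ z, ∑ k, ∑ i, xx U ((AA U s k).mulVec e) z i ^ 2 = q := by
    intro z
    rw [l6 z, he, mul_one]
  -- the case `q = 0`
  have hAe : q = 0 → ∀ k, (AA U s k).mulVec e = 0 := by
    intro hq1 k
    have h1 := lsum 0
    rw [hq1] at h1
    have h2 : ∑ i, xx U ((AA U s k).mulVec e) 0 i ^ 2 = 0 :=
      (Finset.sum_eq_zero_iff_of_nonneg fun k _ => Finset.sum_nonneg fun i _ => sq_nonneg _).1 h1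
        k (Finset.mem_univ k)
    have h3 : ∀ i, xx U ((AA U s k).mulVec e) 0 i = 0 := fun i => by
      have := (Finset.sum_eq_zero_iff_of_nonneg fun i _ => sq_nonneg _).1 h2 i (Finset.mem_univ i)
      exact pow_eq_zero_iff (two_ne_zero) |>.1 this
    have h4 : (U 0).transpose *ᵥ ((AA U s k).mulVec e) = 0 := funext h3
    calc (AA U s k).mulVec e = (U 0 * (U 0).transpose) *ᵥ ((AA U s k).mulVec e) := by
          rw [ho 0, Matrix.one_mulVec]
      _ = U 0 *ᵥ ((U 0).transpose *ᵥ ((AA U s k).mulVec e)) := (Matrix.mulVec_mulVec _ _ _).symm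
      _ = 0 := by rw [h4, Matrix.mulVec_zero]
  have hz0 : q = 0 → ∀ z i, col U (ZZ U s) e z i = 0 := by
    intro hq1 z i
    unfold SP.col ZZ
    rw [Matrix.sum_mulVec]
    have h1 : ∑ k, (Fa U s k z * AA U s k) *ᵥ e = 0 := by
      refine Finset.sum_eq_zero fun k _ => ?_
      rw [← Matrix.mulVec_mulVec, hAe hq1 k, Matrix.mulVec_zero]
    rw [h1, Matrix.mulVec_zero]
    rfl
  have hk0 : q = 0 → ∀ (W : ℝ → ℝ → ℝ) z i, kA W U s e z i = 0 := by
    intro hq1 W z i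
    unfold kA kk
    refine Finset.sum_eq_zero fun k _ => Finset.sum_eq_zero fun j _ => ?_
    have h1 : xx U ((AA U s k).mulVec e) z j = 0 := by
      rw [hAe hq1 k]
      unfold xx
      rw [Matrix.mulVec_zero]
      rfl
    rw [h1, mul_zero]
  -- kernels
  have hkr' : ∀ z i, ∑ k, kap P.r' P.r'' U s k ((AA U s k).mulVec e) z i
      = kA (w i₀) U s e z i := by
    intro z i
    unfold kA kk kap
    refine Finset.sum_congr rfl fun k _ => Finset.sum_congr rfl fun j _ => ?_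
    rw [hw0]
  have hsum : ∀ z i, ∑ j, m.γ j (s z i) * kA (w j) U s e z i
      = (m.c - 1) * kA (ck P) U s e z i
        - m.Mt * kA (fun x y => dd (th P) (th1 P) x y - th1 P x) U s e z i
        - m.Mr * kA (fun x y => dd P.r P.r' x y - P.r' x) U s e z i
        - m.B4 * kA (fun x y => P.r' y ^ 2 - P.r' x ^ 2) U s e z i := by
    intro z i
    rw [← kA_four, kA_lin m.γ w _ hm.ker]
  have c_th : Continuous fun p : ℝ × ℝ => dd (th P) (th1 P) p.1 p.2 - th1 P p.1 :=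
    (SP127.dd_continuous (hasDeriv_th P) (th1_cont P)).sub ((th1_cont P).comp continuous_fst)
  have c_r : Continuous fun p : ℝ × ℝ => dd P.r P.r' p.1 p.2 - P.r' p.1 :=
    (SP127.dd_continuous P.hr (r'_cont P)).sub ((r'_cont P).comp continuous_fst)
  have c_4 : Continuous fun p : ℝ × ℝ => P.r' p.2 ^ 2 - P.r' p.1 ^ 2 := by
    have := r'_cont P
    fun_prop
  have c_S2 : Continuous fun x => P.r' x ^ 2 := (r'_cont P).pow 2
  -- single sums
  have t1 : HE (fun z => ∑ i, col U (FF U s) e z i ^ 2) (nF U s e) := HE.of (hY.sq ho)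
  have t2 : HE (fun z => ∑ i, (P.r' (s z i) * col U (FF U s) e z i
      + (q - 1) * P.r'' (s z i) * xx U e z i + P.r'' (s z i) * col U (ZZ U s) e z i
      + kA (w i₀) U s e z i - 1 / 4 * col U (FF U s) e z i) ^ 2)
      (Ex Q (fun z => ∑ i, (SP.ae P U s q e z i - 1 / 4 * col U (FF U s) e z i) ^ 2)) := by
    refine (HE.of ((hae.sub (hY.smul (1 / 4))).sq ho)).congr fun z => ?_
    refine Finset.sum_congr rfl fun i _ => ?_
    rw [← hkr']
    rfl
  have t3 : HE (fun z => ∑ i, w0 P (s z i) * xx U e z i ^ 2)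
      (Ex Q (fun z => ∑ i, (P.r' (s z i) + P.r (s z i) * P.r'' (s z i)) * xx U e z i ^ 2)) :=
    HE.of (FC.psq h hF (w0_cont P) hX)
  have t4 : HE (fun z => ∑ i, w0 P (s z i) * xx U e z i * col U (ZZ U s) e z i)
      (Ex Q (fun z => ∑ i, (P.r' (s z i) + P.r (s z i) * P.r'' (s z i)) * xx U e z i
        * col U (ZZ U s) e z i)) := HE.of (FC.pdot h hF (w0_cont P) hX hZ)
  have t5 : HE (fun z => ∑ i, th P (s z i) * xx U e z i * col U (FF U s) e z i)
      (Ex Q (fun z => ∑ i, (P.r (s z i) + P.r (s z i) * P.r' (s z i)) * xx U e z i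
        * col U (FF U s) e z i)) := HE.of (FC.pdot h hF (th_cont P) hX hY)
  have t6 : HE (fun z => ∑ i, xx U e z i ^ 2) 1 := by
    refine HE.of_eq (hX.sq ho) ?_
    simp only [xsum]
    exact SP127.Ex_const' 1
  have t7 : HE (fun z => ∑ i, xx U e z i * col U (FF U s) e z i) 0 := HE.of_eq (hX.dot ho hY) l2
  have t8 : HE (fun z => ∑ i, s z i * xx U e z i * col U (FF U s) e z i) (nF U s e) :=
    HE.of_eq (FC.pdot h hF continuous_id hX hY) l4
  have t9 : HE (fun z => ∑ i, xx U e z i * col U (ZZ U s) e z i) 0 := HE.of_eq (hX.dot ho hZ) l3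
  have t10 : HE (fun z => ∑ i, s z i * xx U e z i ^ 2) 0 :=
    HE.of_eq (FC.psq h hF continuous_id hX) l1
  -- Stein identities
  have st0 := SP.H545.stmtST P n φ V a b M κ U s hD (fun x => x) (fun _ => 1)
    (fun x => hasDerivAt_id x) continuous_const e q hq
  have t12 : HE (fun z => ∑ i, 1 * xx U e z i * (q * xx U e z i + col U (ZZ U s) e z i))
      (Ex Q (fun z => ∑ i, 1 * xx U e z i * (q * xx U e z i + col U (ZZ U s) e z i))) :=
    HE.of (FC.pdot h hF (p := fun _ => 1) continuous_const hX hQZ)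
  have t11 : HE (fun z => ∑ i, s z i * s z i * xx U e z i ^ 2)
      (nF U s e
        + Ex Q (fun z => ∑ i, 1 * xx U e z i * (q * xx U e z i + col U (ZZ U s) e z i))) := by
    refine HE.of_eq (FC.psq h hF (p := fun x => x * x) (by fun_prop) hX) ?_
    have e1 : Ex Q (fun z => ∑ k, ∑ i, xx U e z i
        * kap (fun x => x) (fun _ => 1) U s k ((AA U s k).mulVec e) z i) = 0 := by
      simp only [kap_id, mul_zero, Finset.sum_const_zero]
      exact SP127.Ex_const' 0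
    have e2 : Ex Q (fun z => ∑ i, s z i * xx U e z i * col U (FF U s) e z i) = nF U s e := t8.val
    rw [e1, add_zero, e2] at st0
    exact st0
  have st1 := SP.H545.stmtST P n φ V a b M κ U s hD (th P) (th1 P) (hasDeriv_th P) (th1_cont P) e q hq
  have u2 : HE (fun z => ∑ i, xx U e z i
      * kA (fun x y => dd (th P) (th1 P) x y - th1 P x) U s e z i)
      (Ex Q (fun z => ∑ i, xx U e z i
        * kA (fun x y => dd (th P) (th1 P) x y - th1 P x) U s e z i)) :=
    HE.of (hX.dot ho (fc_kA h hF c_th e))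
  have t15 : HE (fun z => ∑ i, th1 P (s z i) * xx U e z i
      * (q * xx U e z i + col U (ZZ U s) e z i))
      (Ex Q (fun z => ∑ i, th1 P (s z i) * xx U e z i
        * (q * xx U e z i + col U (ZZ U s) e z i))) := HE.of (FC.pdot h hF (th1_cont P) hX hQZ)
  have t13 : HE (fun z => ∑ i, th P (s z i) * s z i * xx U e z i ^ 2)
      (Ex Q (fun z => ∑ i, (P.r (s z i) + P.r (s z i) * P.r' (s z i)) * xx U e z i
        * col U (FF U s) e z i)
        + Ex Q (fun z => ∑ i, th1 P (s z i) * xx U e z i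
          * (q * xx U e z i + col U (ZZ U s) e z i))
        + Ex Q (fun z => ∑ i, xx U e z i
          * kA (fun x y => dd (th P) (th1 P) x y - th1 P x) U s e z i)) := by
    refine HE.of_eq (FC.psq h hF (p := fun x => th P x * x)
      ((th_cont P).mul continuous_id) hX) ?_
    simp only [sum_kap] at st1
    exact st1
  have st2 := SP.H545.stmtST P n φ V a b M κ U s hD P.r P.r' P.hr (r'_cont P) e q hq
  have u3 : HE (fun z => ∑ i, xx U e z i * kA (fun x y => dd P.r P.r' x y - P.r' x) U s e z i)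
      (Ex Q (fun z => ∑ i, xx U e z i * kA (fun x y => dd P.r P.r' x y - P.r' x) U s e z i)) :=
    HE.of (hX.dot ho (fc_kA h hF c_r e))
  have t17 : HE (fun z => ∑ i, P.r (s z i) * xx U e z i * col U (FF U s) e z i)
      (Ex Q (fun z => ∑ i, P.r (s z i) * xx U e z i * col U (FF U s) e z i)) :=
    HE.of (FC.pdot h hF (r_cont P) hX hY)
  have t18 : HE (fun z => ∑ i, P.r' (s z i) * xx U e z i
      * (q * xx U e z i + col U (ZZ U s) e z i))
      (Ex Q (fun z => ∑ i, P.r' (s z i) * xx U e z i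
        * (q * xx U e z i + col U (ZZ U s) e z i))) := HE.of (FC.pdot h hF (r'_cont P) hX hQZ)
  have t16 : HE (fun z => ∑ i, P.r (s z i) * s z i * xx U e z i ^ 2)
      (Ex Q (fun z => ∑ i, P.r (s z i) * xx U e z i * col U (FF U s) e z i)
        + Ex Q (fun z => ∑ i, P.r' (s z i) * xx U e z i
          * (q * xx U e z i + col U (ZZ U s) e z i))
        + Ex Q (fun z => ∑ i, xx U e z i
          * kA (fun x y => dd P.r P.r' x y - P.r' x) U s e z i)) := by
    refine HE.of_eq (FC.psq h hF (p := fun x => P.r x * x)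
      ((r_cont P).mul continuous_id) hX) ?_
    simp only [sum_kap] at st2
    exact st2
  have u1 : HE (fun z => ∑ i, xx U e z i * kA (ck P) U s e z i)
      (Ex Q (fun z => ∑ i, xx U e z i * kA (ck P) U s e z i)) :=
    HE.of (hX.dot ho (fc_kA h hF (SP127.comm_continuous P) e))
  have u4 : HE (fun z => ∑ i, xx U e z i * kA (fun x y => P.r' y ^ 2 - P.r' x ^ 2) U s e z i)
      (Ex Q (fun z => ∑ i, xx U e z i * kA (fun x y => P.r' y ^ 2 - P.r' x ^ 2) U s e z i)) :=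
    HE.of (hX.dot ho (fc_kA h hF c_4 e))
  have t19 : HE (fun z => ∑ i, P.r' (s z i) ^ 2 * xx U e z i
      * (q * xx U e z i + col U (ZZ U s) e z i))
      (Ex Q (fun z => ∑ i, P.r' (s z i) ^ 2 * xx U e z i
        * (q * xx U e z i + col U (ZZ U s) e z i))) := HE.of (FC.pdot h hF c_S2 hX hQZ)
  have t20 : HE (fun z => ∑ i, xx U e z i * ∑ j, m.γ j (s z i) * kA (w j) U s e z i)
      ((m.c - 1) * Ex Q (fun z => ∑ i, xx U e z i * kA (ck P) U s e z i)
        - m.Mt * Ex Q (fun z => ∑ i, xx U e z i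
          * kA (fun x y => dd (th P) (th1 P) x y - th1 P x) U s e z i)
        - m.Mr * Ex Q (fun z => ∑ i, xx U e z i
          * kA (fun x y => dd P.r P.r' x y - P.r' x) U s e z i)
        - m.B4 * Ex Q (fun z => ∑ i, xx U e z i
          * kA (fun x y => P.r' y ^ 2 - P.r' x ^ 2) U s e z i)) := by
    refine ((((u1.smul (m.c - 1)).sub (u2.smul m.Mt)).sub (u3.smul m.Mr)).sub
      (u4.smul m.B4)).congr fun z => ?_
    simp only [Finset.mul_sum, ← Finset.sum_sub_distrib]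
    refine Finset.sum_congr rfl fun i _ => ?_
    rw [← Finset.mul_sum, hsum]
    ring
  have t21 : HE (fun z => ∑ i, col U (ZZ U s) e z i ^ 2) (nZ U s e) := HE.of (hZ.sq ho)
  have t22 : HE (fun z => ∑ i, ∑ j, m.c * bw j * q⁻¹ * kA (w j) U s e z i ^ 2)
      (m.c * ∑ j, bw j * (q⁻¹ * Ex Q (fun z => ∑ i, kA (w j) U s e z i ^ 2))) := by
    refine ((HE.sum Finset.univ fun j _ => ((HE.of ((fc_kA h hF (hw j) e).sq ho)).smul
      q⁻¹).smul (bw j)).smul m.c).congr fun z => ?_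
    rw [Finset.sum_comm, Finset.mul_sum]
    refine Finset.sum_congr rfl fun j _ => ?_
    rw [← Finset.mul_sum]
    ring
  -- form B
  have HB := (t1.smul (m.c - (1 + 1 / m.σ) / 16)).neg |>.sub t2
    |>.add ((((t3.smul (q - 1)).add t4).add t5).smul (m.c - 1))
    |>.sub (t6.smul (m.c * Real.log m.c - m.c + 1)) |>.add (t7.smul m.L1)
    |>.add ((t8.sub t1).smul m.L2) |>.add (t9.smul m.L3) |>.add (t10.smul m.L4)
    |>.sub (t6.smul (m.L5 * q)) |>.add (((t11.sub t8).sub t12).smul m.T0)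
    |>.add (((t13.sub t5).sub t15).smul m.Mt) |>.add (((t16.sub t17).sub t18).smul m.Mr)
    |>.sub (t19.smul m.B4) |>.add (t1.smul (2 * m.L6)) |>.add t20
    |>.add (t21.smul (m.c * ν * q⁻¹)) |>.add t22
    |>.sub ((t1.add (t6.smul (min 1 ((q - 1) ^ 2)))).smul (m.c * ρ))
  have hBn := HB.nonneg fun z => by
    have key := B_alg (xx U e z) (col U (FF U s) e z) (col U (ZZ U s) e z) (kA (w i₀) U s e z)
      (fun i => ∑ j, m.γ j (s z i) * kA (w j) U s e z i)
      (fun i => ∑ j, m.c * bw j * q⁻¹ * kA (w j) U s e z i ^ 2)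
      (s z) (fun i => P.r' (s z i)) (fun i => P.r'' (s z i)) (fun i => w0 P (s z i))
      (fun i => th P (s z i)) (fun i => th1 P (s z i)) (fun i => P.r (s z i))
      (m.c - (1 + 1 / m.σ) / 16) q (m.c - 1) (m.c * Real.log m.c - m.c + 1) m.L1 m.L2 m.L3 m.L4
      m.L5 m.T0 m.Mt m.Mr m.B4 m.L6 (m.c * ν * q⁻¹) (m.c * ρ) (min 1 ((q - 1) ^ 2))
    refine le_of_le_of_eq (Finset.sum_nonneg fun i _ => ?_) key
    exact hm.formB (s z i) (xx U e z i) (col U (FF U s) e z i) (col U (ZZ U s) e z i)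
      (fun j => kA (w j) U s e z i) fun hq1 => ⟨hz0 hq1 z i, fun j => hk0 hq1 (w j) z i⟩
  -- double sums
  have a1 : HE (fun z => ∑ k, ∑ i, col U (Fa U s k) e z i ^ 2) (nDF U s e) :=
    HE.of (MP.sum _ fun k _ => (hFa k).sq ho)
  have a2 : HE (fun z => ∑ k, ∑ i, (P.r' (s z i) * col U (Fa U s k) e z i
      + kap P.r P.r' U s k e z i) ^ 2) (Ex Q (fun z => ∑ k, ∑ i, be P U s e k z i ^ 2)) :=
    HE.of (MP.sum _ fun k _ => (hbe k).sq ho)
  have a3 : HE (fun z => ∑ k, ∑ i, (P.r' (s z i) * col U (Fa U s k) e z i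
      + kap P.r P.r' U s k e z i - 1 / 4 * col U (Fa U s k) e z i) ^ 2)
      (Ex Q (fun z => ∑ k, ∑ i, (be P U s e k z i - 1 / 4 * col U (Fa U s k) e z i) ^ 2)) :=
    HE.of (MP.sum _ fun k _ => ((hbe k).sub ((hFa k).smul (1 / 4))).sq ho)
  have a4 : HE (fun z => ∑ k, ∑ i, P.r' (s z i) ^ 2 * xx U ((AA U s k).mulVec e) z i
      * col U (Fa U s k) e z i)
      (Ex Q (fun z => ∑ k, ∑ i, P.r' (s z i) ^ 2 * xx U ((AA U s k).mulVec e) z i
        * col U (Fa U s k) e z i)) :=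
    HE.of (MP.sum _ fun k _ => FC.pdot h hF c_S2 (hAL k) (hFa k))
  have a5 : HE (fun z => ∑ k, ∑ i, xx U ((AA U s k).mulVec e) z i ^ 2) q := by
    refine HE.of_eq (MP.sum _ fun k _ => (hAL k).sq ho) ?_
    simp only [lsum]
    exact SP127.Ex_const' q
  have a6 : HE (fun z => ∑ k, ∑ i, xx U ((AA U s k).mulVec e) z i * col U (Fa U s k) e z i) 0 :=
    HE.of_eq (MP.sum _ fun k _ => (hAL k).dot ho (hFa k)) l5
  have a7 : HE (fun z => ∑ k, ∑ i, P.r' (s z i) ^ 2 * xx U ((AA U s k).mulVec e) z i ^ 2)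
      (Ex Q (fun z => ∑ i, P.r' (s z i) ^ 2 * xx U e z i
        * (q * xx U e z i + col U (ZZ U s) e z i))
      - Ex Q (fun z => ∑ k, ∑ i, P.r' (s z i) ^ 2 * xx U ((AA U s k).mulVec e) z i
        * col U (Fa U s k) e z i)
      + Ex Q (fun z => ∑ i, xx U e z i
          * kA (fun x y => P.r' y ^ 2 - P.r' x ^ 2) U s e z i)) := by
    refine ((t19.sub a4).add u4).congr fun z => ?_
    have c4 := SP.H888.stmtC4 n U s ho (fun x => P.r' x ^ 2) e q AA_symm
      (fun k z => SP127.pdM_GG_symm U s k z) hq z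
    rw [sum_c4 (fun x => P.r' x ^ 2)] at c4
    exact c4
  have a9 : HE (fun z => ∑ k, ∑ i, kap P.r P.r' U s k e z i ^ 2)
      (Ex Q (fun z => ∑ k, ∑ i, kap P.r P.r' U s k e z i ^ 2)) :=
    HE.of (MP.sum _ fun k _ => (hK1 k).sq ho)
  have HA := (a1.smul (m.c - (1 + 1 / m.σ) / 16)) |>.sub (a2.smul (m.c - 1))
    |>.sub (a3.smul (1 + m.σ)) |>.sub (a4.smul (m.c - 1)) |>.add (a5.smul m.L5)
    |>.add (a6.smul m.L7) |>.add ((a7.add a4).smul m.B4) |>.sub (a1.smul m.L6)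
    |>.sub (a1.smul (m.c * ν)) |>.add (a9.smul (m.c * b₁))
  have hAn := HA.nonneg fun z => by
    have key := A_alg (fun i => P.r' (s z i)) (fun k => col U (Fa U s k) e z)
      (fun k => xx U ((AA U s k).mulVec e) z) (fun k => kap P.r P.r' U s k e z)
      (m.c - (1 + 1 / m.σ) / 16) (m.c - 1) (1 + m.σ) m.L5 m.L7 m.B4 m.L6 (m.c * ν) (m.c * b₁)
    refine le_of_le_of_eq (Finset.sum_nonneg fun k _ => Finset.sum_nonneg fun i _ => ?_) key
    exact hm.formA (s z i) (col U (Fa U s k) e z i) (xx U ((AA U s k).mulVec e) z i)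
      (kap P.r P.r' U s k e z i)
  have hg : 0 ≤ m.L6 * (nDF U s e - 2 * nF U s e) :=
    mul_nonneg hm.L6_nonneg (by unfold nDF nF; linarith)
  unfold cT SP151.budg
  linarith

/-- the column inequality for all `q ≥ 0` from the pointwise forms -/
theorem stmtCol_of (hLin : SP.StmtLin) {P : F1} {ν b₁ ρ : ℝ} {N : ℕ} {w : Fin N → ℝ → ℝ → ℝ}
    {bw : Fin N → ℝ} {i₀ : Fin N} (hw : ∀ m, Continuous fun p : ℝ × ℝ => w m p.1 p.2)
    (hw0 : ∀ x y, w i₀ x y = dd P.r' P.r'' x y - P.r'' x)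
    (hpw : ∀ q : ℝ, 0 ≤ q → ∃ m : Mult N, PW P q ν b₁ ρ w bw i₀ m) :
    StmtCol P ν b₁ w bw ρ := by
  intro n φ V a b M κ U s hD h0 e q hq he hq0
  obtain ⟨m, hm⟩ := hpw q hq0
  exact mode1_of hLin hw hw0 hD h0 hq he hm

end Vale.Agent.P254.SP38
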