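import Vale.Agent.P254.SP.H512.Byp1

/-!
P254, block SP, row MainB (helper38): the bound of `Var ⟨e,∇φ⟩` by completing the squares, with the
free parameters `σ` (centring of `r'(G)`) and `ν` (the share of `|Dw|²` used by the form
Cauchy-Schwarz inequality of `StmtGap`).  `σ = 0` is the plain bound.
-/

open MeasureTheory Matrix

namespace Vale.Agent.P254.SP38

open Vale.Agent.P227.M Vale.Agent.P254.S Vale.Agent.P254.SP Vale.Agent.P254.SP512

variable {n : ℕ} {U : E n → Matrix (Fin n) (Fin n) ℝ} {s : E n → Fin n → ℝ}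

/-- `a_e - σ F e` in the frame -/
noncomputable def aeσ (P : F1) (U : E n → Matrix (Fin n) (Fin n) ℝ) (s : E n → Fin n → ℝ)
    (σ q : ℝ) (e : Fin n → ℝ) (z : E n) (i : Fin n) : ℝ :=
  SP.ae P U s q e z i - σ * col U (FF U s) e z i

/-- `b_{a,e} - σ F_a e` in the frame -/
noncomputable def beσ (P : F1) (U : E n → Matrix (Fin n) (Fin n) ℝ) (s : E n → Fin n → ℝ)
    (σ : ℝ) (e : Fin n → ℝ) (a : Fin n) (z : E n) (i : Fin n) : ℝ :=
  be P U s e a z i - σ * col U (Fa U s a) e z i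

theorem sq_dot (x : Fin n → ℝ) : x ⬝ᵥ x = ∑ i, x i ^ 2 := by
  simp only [dotProduct, sq]

theorem two_dot_sub_le (x w : Fin n → ℝ) : 2 * (x ⬝ᵥ w) - ∑ i, w i ^ 2 ≤ x ⬝ᵥ x := by
  rw [dotProduct, dotProduct, Finset.mul_sum, ← Finset.sum_sub_distrib]
  refine Finset.sum_le_sum fun i _ => ?_
  nlinarith [sq_nonneg (x i - w i)]

theorem neg_two_dot_sub_le {ρ : ℝ} (hρ : 0 < ρ) (x w : Fin n → ℝ) :
    -2 * (x ⬝ᵥ w) - ρ * ∑ i, w i ^ 2 ≤ ρ⁻¹ * (x ⬝ᵥ x) := by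
  rw [dotProduct, dotProduct, Finset.mul_sum, Finset.mul_sum, Finset.mul_sum,
    ← Finset.sum_sub_distrib]
  refine Finset.sum_le_sum fun i _ => ?_
  have h : 0 ≤ ρ * (w i + ρ⁻¹ * x i) ^ 2 := mul_nonneg hρ.le (sq_nonneg _)
  have e : ρ * (w i + ρ⁻¹ * x i) ^ 2
      = ρ * w i ^ 2 + 2 * (ρ * ρ⁻¹) * (x i * w i) + (ρ * ρ⁻¹) * ρ⁻¹ * x i ^ 2 := by ring
  rw [e, mul_inv_cancel₀ hρ.ne'] at h
  nlinarith

/-- the form Cauchy-Schwarz inequality in the form used for the supremum -/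
theorem form_le {B del D σ ν : ℝ} (hν : 0 < ν) (hdel : 0 ≤ del) (hD : 0 ≤ D)
    (h : B ^ 2 ≤ del * D) : -2 * σ * B - ν * D ≤ σ ^ 2 / ν * del := by
  have h1 : (2 * |σ * B|) ^ 2 ≤ (ν * D + σ ^ 2 / ν * del) ^ 2 := by
    have h2 : (ν * D + σ ^ 2 / ν * del) ^ 2
        = (ν * D - σ ^ 2 / ν * del) ^ 2 + 4 * (σ ^ 2 * (del * D)) * (ν / ν) := by ring
    rw [h2, div_self hν.ne', mul_pow, sq_abs, mul_pow]
    nlinarith [sq_nonneg (ν * D - σ ^ 2 / ν * del), mul_le_mul_of_nonneg_left h (sq_nonneg σ)]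
  have h3 : 0 ≤ ν * D + σ ^ 2 / ν * del := by positivity
  have h4 := abs_le_of_sq_le_sq' h1 h3
  have h5 : -(σ * B) ≤ |σ * B| := neg_le_abs _
  linarith [h4.2]

theorem var_trick (hVar : StmtVar) (hDK : StmtDK) (hI : StmtIBP2) (hGap : StmtGap) {P : F1}
    {φ V : E n → ℝ} {a b M κ : ℝ} (hD : Dat P φ V a b M κ U s)
    (h0 : ∀ i j, Ex Q (fun z => GG U s z i j) = 0) {e : Fin n → ℝ} {q : ℝ}
    (hq : (KK U s).mulVec e = q • e) {σ ν : ℝ} (hν0 : 0 < ν) (hν1 : ν < 1) :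
    Ex Q (fun z => fe φ e z ^ 2) - (Ex Q (fe φ e)) ^ 2
      ≤ Ups P U s e + (Ex Q (fun z => ∑ i, aeσ P U s σ q e z i ^ 2)
        + (1 - ν)⁻¹ * Ex Q (fun z => ∑ k, ∑ i, beσ P U s σ e k z i ^ 2)
        + σ ^ 2 / ν * (Ex Q (fun z => ∑ k, ∑ i, col U (Fa U s k) e z i ^ 2)
          - Ex Q (fun z => ∑ i, col U (FF U s) e z i ^ 2))) := by
  have ho := hD.fr.orth
  have hL := lipF_of hDK hD
  refine hVar P n φ V a b M κ U s hD e _ fun w hw => ?_
  have hgap := hGap P n φ V a b M κ U s hD h0 e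
  have hgap1 := hgap.1
  have hgap2 := hgap.2 w hw
  obtain ⟨K, hK⟩ := hw
  have hw' : ∃ K : NNReal, ∀ i, LipschitzWith K (w i) := ⟨K, fun i => (hK i).1⟩
  have vw : VMG fun z i => w i z := fun i => MG.lip (hK i).1
  have vdw : ∀ a, VMG fun z i => pd a (w i) z := fun a i => MG.pd (hK i).1 a
  have hB := byp1_mat hI P ho hL e w hw'
  -- the vector fields
  set a' : E n → Fin n → ℝ := fun z => XR U s P z *ᵥ e - σ • (FF U s z *ᵥ e) with ha'
  set b' : Fin n → E n → Fin n → ℝ := fun k z => YR U s P k z *ᵥ e - σ • (Fa U s k z *ᵥ e) with hb'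
  have vX : VMG fun z => XR U s P z *ᵥ e := (mmg_XR P ho hL).mulVec (VMG.const e)
  have vY : ∀ k, VMG fun z => YR U s P k z *ᵥ e := fun k => (mmg_YR P hL k).mulVec (VMG.const e)
  have vF : VMG fun z => FF U s z *ᵥ e := (mmg_FF hL).mulVec (VMG.const e)
  have vFa : ∀ k, VMG fun z => Fa U s k z *ᵥ e := fun k => (mmg_Fa hL k).mulVec (VMG.const e)
  have va' : VMG a' := fun i => by
    simp only [ha', Pi.sub_apply, Pi.smul_apply, smul_eq_mul]
    exact (vX i).sub ((vF i).const_mul σ)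
  have vb' : ∀ k, VMG (b' k) := fun k i => by
    simp only [hb', Pi.sub_apply, Pi.smul_apply, smul_eq_mul]
    exact (vY k i).sub ((vFa k i).const_mul σ)
  -- the squares in the frame
  have ea : Ex Q (fun z => ∑ i, aeσ P U s σ q e z i ^ 2) = Ex Q (fun z => a' z ⬝ᵥ a' z) := by
    refine Ex_congr_ae ?_
    filter_upwards [ae_dk hDK hD P.hr' P.r''_cont] with z hz
    rw [← dot_frame ho (a' z) (a' z) z]
    refine Finset.sum_congr rfl fun i _ => ?_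
    have h1 : ((U z).transpose *ᵥ a' z) i = aeσ P U s σ q e z i := by
      rw [ha', aeσ, ← ae_eq P ho hz hq]
      simp only [Matrix.mulVec_sub, Matrix.mulVec_smul, Pi.sub_apply, Pi.smul_apply, smul_eq_mul]
      rfl
    rw [h1, sq]
  have eb : Ex Q (fun z => ∑ k, ∑ i, beσ P U s σ e k z i ^ 2)
      = Ex Q (fun z => ∑ k, b' k z ⬝ᵥ b' k z) := by
    refine Ex_congr_ae ?_
    filter_upwards [ae_dk hDK hD P.hr (cont_r' P)] with z hz
    refine Finset.sum_congr rfl fun k _ => ?_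
    rw [← dot_frame ho (b' k z) (b' k z) z]
    refine Finset.sum_congr rfl fun i _ => ?_
    have h1 : ((U z).transpose *ᵥ b' k z) i = beσ P U s σ e k z i := by
      rw [hb', beσ, ← be_eq P ho hz]
      simp only [Matrix.mulVec_sub, Matrix.mulVec_smul, Pi.sub_apply, Pi.smul_apply, smul_eq_mul]
      rfl
    rw [h1, sq]
  -- the linear functional
  have eF1 : Ex Q (fun z => ∑ k, ∑ i, col U (Fa U s k) e z i * fr U (fun j => pd k (w j)) z i)
      = Ex Q (fun z => ∑ k, (Fa U s k z *ᵥ e) ⬝ᵥ fun i => pd k (w i) z) := by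
    congr 1
    funext z
    refine Finset.sum_congr rfl fun k _ => ?_
    rw [← dot_frame ho]
    rfl
  have eF2 : Ex Q (fun z => ∑ i, col U (FF U s) e z i * fr U w z i)
      = Ex Q (fun z => (FF U s z *ᵥ e) ⬝ᵥ fun i => w i z) := by
    congr 1
    funext z
    rw [← dot_frame ho]
    rfl
  have mXw : MG fun z => (XR U s P z *ᵥ e) ⬝ᵥ fun i => w i z := vX.dot vw
  have mYw : MG fun z => ∑ k, (YR U s P k z *ᵥ e) ⬝ᵥ fun i => pd k (w i) z :=
    MG.sum _ fun k _ => (vY k).dot (vdw k)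
  have mFw : MG fun z => (FF U s z *ᵥ e) ⬝ᵥ fun i => w i z := vF.dot vw
  have mFaw : MG fun z => ∑ k, (Fa U s k z *ᵥ e) ⬝ᵥ fun i => pd k (w i) z :=
    MG.sum _ fun k _ => (vFa k).dot (vdw k)
  have maw : MG fun z => a' z ⬝ᵥ fun i => w i z := va'.dot vw
  have mbw : MG fun z => ∑ k, b' k z ⬝ᵥ fun i => pd k (w i) z :=
    MG.sum _ fun k _ => (vb' k).dot (vdw k)
  have maa : MG fun z => a' z ⬝ᵥ a' z := va'.dot va'
  have mbb : MG fun z => ∑ k, b' k z ⬝ᵥ b' k z := MG.sum _ fun k _ => (vb' k).dot (vb' k)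
  have mw : MG fun z => ∑ i, w i z ^ 2 := MG.sum _ fun i _ => (vw i).pow 2
  have mdw : MG fun z => ∑ k, ∑ i, pd k (w i) z ^ 2 :=
    MG.sum _ fun k _ => MG.sum _ fun i _ => (vdw k i).pow 2
  have e1 : Ex Q (fun z => a' z ⬝ᵥ fun i => w i z)
      = Ex Q (fun z => (XR U s P z *ᵥ e) ⬝ᵥ fun i => w i z)
        - σ * Ex Q (fun z => (FF U s z *ᵥ e) ⬝ᵥ fun i => w i z) := by
    rw [← Ex_const_mul, ← Ex_sub mXw (mFw.const_mul σ)]
    congr 1
    funext z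
    simp only [ha', sub_dotProduct, smul_dotProduct, smul_eq_mul]
  have e2 : Ex Q (fun z => ∑ k, b' k z ⬝ᵥ fun i => pd k (w i) z)
      = Ex Q (fun z => ∑ k, (YR U s P k z *ᵥ e) ⬝ᵥ fun i => pd k (w i) z)
        - σ * Ex Q (fun z => ∑ k, (Fa U s k z *ᵥ e) ⬝ᵥ fun i => pd k (w i) z) := by
    rw [← Ex_const_mul, ← Ex_sub mYw (mFaw.const_mul σ)]
    congr 1
    funext z
    simp only [hb', sub_dotProduct, smul_dotProduct, smul_eq_mul, Finset.sum_sub_distrib,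
      Finset.mul_sum]
  have hLL : LL P φ U s e w = Ex Q (fun z => a' z ⬝ᵥ fun i => w i z)
      - Ex Q (fun z => ∑ k, b' k z ⬝ᵥ fun i => pd k (w i) z)
      - σ * (Ex Q (fun z => ∑ k, (Fa U s k z *ᵥ e) ⬝ᵥ fun i => pd k (w i) z)
        - Ex Q (fun z => (FF U s z *ᵥ e) ⬝ᵥ fun i => w i z)) := by
    have e0 : LL P φ U s e w
        = Ex Q (fun z => ((fc U s P.L z - fc U s P.r z) *ᵥ e) ⬝ᵥ fun i => w i z)
      - Ex Q (fun z => ∑ a, (pdM a (fc U s P.r) z *ᵥ e) ⬝ᵥ fun i => pd a (w i) z) := by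
      have e00 : (fun z : E n => ((fc U s P.L z - fc U s P.r z) *ᵥ e) ⬝ᵥ fun i => w i z)
          = fun z => ∑ i, ((hess φ z).mulVec e i - (fc U s P.r z).mulVec e i) * w i z := by
        funext z
        rw [hD.fr.dec z, Matrix.sub_mulVec]
        rfl
      unfold LL
      rw [e00]
      rfl
    rw [e0, hB, e1, e2]
    ring
  -- the three inequalities
  have i1 : 2 * Ex Q (fun z => a' z ⬝ᵥ fun i => w i z) - Ex Q (fun z => ∑ i, w i z ^ 2)
      ≤ Ex Q (fun z => a' z ⬝ᵥ a' z) := by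
    rw [← Ex_const_mul, ← Ex_sub (maw.const_mul 2) mw]
    exact Ex_mono_ae ((maw.const_mul 2).sub mw) maa
      (ae_of_all _ fun z => two_dot_sub_le (a' z) fun i => w i z)
  have hρ : 0 < 1 - ν := by linarith
  have i2 : -2 * Ex Q (fun z => ∑ k, b' k z ⬝ᵥ fun i => pd k (w i) z)
        - (1 - ν) * Ex Q (fun z => ∑ k, ∑ i, pd k (w i) z ^ 2)
      ≤ (1 - ν)⁻¹ * Ex Q (fun z => ∑ k, b' k z ⬝ᵥ b' k z) := by
    rw [← Ex_const_mul, ← Ex_const_mul, ← Ex_const_mul,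
      ← Ex_sub (mbw.const_mul (-2)) (mdw.const_mul (1 - ν))]
    refine Ex_mono_ae ((mbw.const_mul (-2)).sub (mdw.const_mul (1 - ν))) (mbb.const_mul _)
      (ae_of_all _ fun z => ?_)
    show -2 * ∑ k, b' k z ⬝ᵥ (fun i => pd k (w i) z) - (1 - ν) * ∑ k, ∑ i, pd k (w i) z ^ 2
      ≤ (1 - ν)⁻¹ * ∑ k, b' k z ⬝ᵥ b' k z
    rw [Finset.mul_sum, Finset.mul_sum, Finset.mul_sum, ← Finset.sum_sub_distrib]
    exact Finset.sum_le_sum fun k _ => neg_two_dot_sub_le hρ (b' k z) fun i => pd k (w i) z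
  have pos1 : 0 ≤ Ex Q (fun z => ∑ i, col U (FF U s) e z i ^ 2) := by
    rw [S151.Ex_eq]
    exact integral_nonneg fun z => Finset.sum_nonneg fun _ _ => sq_nonneg _
  have pos2 : 0 ≤ Ex Q (fun z => ∑ k, ∑ i, pd k (w i) z ^ 2) := by
    rw [S151.Ex_eq]
    exact integral_nonneg fun z => Finset.sum_nonneg fun _ _ => Finset.sum_nonneg fun _ _ => sq_nonneg _
  rw [eF1, eF2] at hgap2
  have i3 := form_le (σ := σ) hν0 (by linarith) pos2 hgap2
  rw [hLL, ea, eb]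
  linarith

/-- the plain bound (no position needed) -/
theorem var_plain (hVar : StmtVar) (hDK : StmtDK) (hI : StmtIBP2) {P : F1}
    {φ V : E n → ℝ} {a b M κ : ℝ} (hD : Dat P φ V a b M κ U s) {e : Fin n → ℝ} {q : ℝ}
    (hq : (KK U s).mulVec e = q • e) :
    Ex Q (fun z => fe φ e z ^ 2) - (Ex Q (fe φ e)) ^ 2
      ≤ Ups P U s e + (Ex Q (fun z => ∑ i, SP.ae P U s q e z i ^ 2)
        + Ex Q (fun z => ∑ k, ∑ i, be P U s e k z i ^ 2)) := by
  have ho := hD.fr.orth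
  have hL := lipF_of hDK hD
  refine hVar P n φ V a b M κ U s hD e _ fun w hw => ?_
  obtain ⟨K, hK⟩ := hw
  have hw' : ∃ K : NNReal, ∀ i, LipschitzWith K (w i) := ⟨K, fun i => (hK i).1⟩
  have vw : VMG fun z i => w i z := fun i => MG.lip (hK i).1
  have vdw : ∀ a, VMG fun z i => pd a (w i) z := fun a i => MG.pd (hK i).1 a
  have hB := byp1_mat hI P ho hL e w hw'
  have vX : VMG fun z => XR U s P z *ᵥ e := (mmg_XR P ho hL).mulVec (VMG.const e)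
  have vY : ∀ k, VMG fun z => YR U s P k z *ᵥ e := fun k => (mmg_YR P hL k).mulVec (VMG.const e)
  have ea : Ex Q (fun z => ∑ i, SP.ae P U s q e z i ^ 2)
      = Ex Q (fun z => (XR U s P z *ᵥ e) ⬝ᵥ (XR U s P z *ᵥ e)) := by
    refine Ex_congr_ae ?_
    filter_upwards [ae_dk hDK hD P.hr' P.r''_cont] with z hz
    rw [← dot_frame ho (XR U s P z *ᵥ e) (XR U s P z *ᵥ e) z]
    refine Finset.sum_congr rfl fun i _ => ?_
    rw [ae_eq P ho hz hq, sq]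
  have eb : Ex Q (fun z => ∑ k, ∑ i, be P U s e k z i ^ 2)
      = Ex Q (fun z => ∑ k, (YR U s P k z *ᵥ e) ⬝ᵥ (YR U s P k z *ᵥ e)) := by
    refine Ex_congr_ae ?_
    filter_upwards [ae_dk hDK hD P.hr (cont_r' P)] with z hz
    refine Finset.sum_congr rfl fun k _ => ?_
    rw [← dot_frame ho (YR U s P k z *ᵥ e) (YR U s P k z *ᵥ e) z]
    refine Finset.sum_congr rfl fun i _ => ?_
    rw [be_eq P ho hz, sq]
  have mXw : MG fun z => (XR U s P z *ᵥ e) ⬝ᵥ fun i => w i z := vX.dot vw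
  have mYw : MG fun z => ∑ k, (YR U s P k z *ᵥ e) ⬝ᵥ fun i => pd k (w i) z :=
    MG.sum _ fun k _ => (vY k).dot (vdw k)
  have maa : MG fun z => (XR U s P z *ᵥ e) ⬝ᵥ (XR U s P z *ᵥ e) := vX.dot vX
  have mbb : MG fun z => ∑ k, (YR U s P k z *ᵥ e) ⬝ᵥ (YR U s P k z *ᵥ e) :=
    MG.sum _ fun k _ => (vY k).dot (vY k)
  have mw : MG fun z => ∑ i, w i z ^ 2 := MG.sum _ fun i _ => (vw i).pow 2
  have mdw : MG fun z => ∑ k, ∑ i, pd k (w i) z ^ 2 :=
    MG.sum _ fun k _ => MG.sum _ fun i _ => (vdw k i).pow 2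
  have hLL : LL P φ U s e w = Ex Q (fun z => (XR U s P z *ᵥ e) ⬝ᵥ fun i => w i z)
      - Ex Q (fun z => ∑ k, (YR U s P k z *ᵥ e) ⬝ᵥ fun i => pd k (w i) z) := by
    have e0 : LL P φ U s e w
        = Ex Q (fun z => ((fc U s P.L z - fc U s P.r z) *ᵥ e) ⬝ᵥ fun i => w i z)
      - Ex Q (fun z => ∑ a, (pdM a (fc U s P.r) z *ᵥ e) ⬝ᵥ fun i => pd a (w i) z) := by
      have e00 : (fun z : E n => ((fc U s P.L z - fc U s P.r z) *ᵥ e) ⬝ᵥ fun i => w i z)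
          = fun z => ∑ i, ((hess φ z).mulVec e i - (fc U s P.r z).mulVec e i) * w i z := by
        funext z
        rw [hD.fr.dec z, Matrix.sub_mulVec]
        rfl
      unfold LL
      rw [e00]
      rfl
    rw [e0, hB]
  have i1 : 2 * Ex Q (fun z => (XR U s P z *ᵥ e) ⬝ᵥ fun i => w i z)
      - Ex Q (fun z => ∑ i, w i z ^ 2)
      ≤ Ex Q (fun z => (XR U s P z *ᵥ e) ⬝ᵥ (XR U s P z *ᵥ e)) := by
    rw [← Ex_const_mul, ← Ex_sub (mXw.const_mul 2) mw]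
    exact Ex_mono_ae ((mXw.const_mul 2).sub mw) maa
      (ae_of_all _ fun z => two_dot_sub_le (XR U s P z *ᵥ e) fun i => w i z)
  have i2 : -2 * Ex Q (fun z => ∑ k, (YR U s P k z *ᵥ e) ⬝ᵥ fun i => pd k (w i) z)
        - Ex Q (fun z => ∑ k, ∑ i, pd k (w i) z ^ 2)
      ≤ Ex Q (fun z => ∑ k, (YR U s P k z *ᵥ e) ⬝ᵥ (YR U s P k z *ᵥ e)) := by
    rw [← Ex_const_mul, ← Ex_sub (mYw.const_mul (-2)) mdw]
    refine Ex_mono_ae ((mYw.const_mul (-2)).sub mdw) mbb (ae_of_all _ fun z => ?_)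
    show -2 * ∑ k, (YR U s P k z *ᵥ e) ⬝ᵥ (fun i => pd k (w i) z) - ∑ k, ∑ i, pd k (w i) z ^ 2
      ≤ ∑ k, (YR U s P k z *ᵥ e) ⬝ᵥ (YR U s P k z *ᵥ e)
    rw [Finset.mul_sum, ← Finset.sum_sub_distrib]
    refine Finset.sum_le_sum fun k _ => ?_
    have h := neg_two_dot_sub_le one_pos (YR U s P k z *ᵥ e) fun i => pd k (w i) z
    rw [one_mul, inv_one, one_mul] at h
    exact h
  rw [hLL, ea, eb]
  linarith

end Vale.Agent.P254.SP38
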